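import Vale.Agent.P088.R2.H794.B.Spec
import Vale.Agent.P088.R2.H794.Mat
import Vale.Agent.P088.H607.XSc

/-!
# P088, two metrics near the flat one on a smooth domain, no condition at the boundary: from the
small ball to every smooth bounded domain (scaling, cut-off), and from tensors to metrics
-/

open MeasureTheory Set
open scoped ContDiff Matrix

noncomputable section

namespace Vale.Agent.P088.HY.Bd.H335

open Vale.Agent.P088.LR Vale.Agent.P088.LR.B Vale.Agent.P088.LR.CF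
  Vale.Agent.P088.LR.H925 Vale.Agent.P088.H639 Vale.Agent.P088.HY.Bd Vale.Agent.P088.H607

variable {n : ℕ}

/-- The dilation by `8` with centre `(1/2, …, 1/2)`. -/
def D8 (y : V n) : V n := ps 8 y + fun _ => (1 / 2 : ℝ)

theorem D8_apply (y : V n) (j : Fin n) : D8 y j = 8 * (y j - 1 / 2) + 1 / 2 := rfl

theorem ps_D8 (t : ℝ) (y : V n) : ps t (D8 y) = ps (8 * t) y := by
  funext j
  show t * (8 * (y j - 1 / 2) + 1 / 2 - 1 / 2) = 8 * t * (y j - 1 / 2)
  ring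

theorem sum_D8 (y : V n) : ∑ j, (D8 y j - 1 / 2) ^ 2 = 64 * ∑ j, (y j - 1 / 2) ^ 2 := by
  rw [Finset.mul_sum]
  refine Finset.sum_congr rfl fun j _ => ?_
  rw [D8_apply]
  ring

theorem contDiff_D8 : ContDiff ℝ ∞ (D8 : V n → V n) := (contDiff_ps 8).add contDiff_const

theorem fd_D8 (y : V n) : HasFDerivAt (D8 : V n → V n)
    ((8 : ℝ) • ContinuousLinearMap.id ℝ (V n)) y := (fd_ps 8 y).add_const _

theorem notMem_bal {y : V n} (hy : y ∉ bls n) : D8 y ∉ bal n := by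
  intro h
  apply hy
  have h1 : ∑ j, (D8 y j - 1 / 2) ^ 2 ≤ 1 / 16 := h
  rw [sum_D8] at h1
  show ∑ j, (y j - 1 / 2) ^ 2 ≤ 1 / 1024
  linarith

theorem bls_bal : bls n ⊆ bal n := fun x hx => by
  have h : ∑ j, (x j - 1 / 2) ^ 2 ≤ 1 / 1024 := hx
  show ∑ j, (x j - 1 / 2) ^ 2 ≤ 1 / 16
  linarith

theorem chi_bls {x : V n} (hx : x ∈ bls n) : chi442 x = 1 := by
  have h : ∑ j, (x j - 1 / 2) ^ 2 ≤ 1 / 1024 := hx
  exact chi_one442 (by linarith)

/-- Normalisation of the domain. -/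
theorem exists_dom_bls {ρ : V n → ℝ} (h : SDom ρ) : ∃ t : ℝ, 1 ≤ t ∧ ∃ ρ' : V n → ℝ, Dom ρ' ∧
    (∀ y ∉ bls n, ρ' y = -1) ∧ (∀ y, 0 < ρ' y ↔ 0 < ρ (ps t y)) ∧
    (∀ y, ρ' y = 0 ↔ ρ (ps t y) = 0) ∧ (∀ y, 0 ≤ ρ' y → chi442 y = 1) := by
  obtain ⟨t, ht, ρ₀, hρ₀, hoff, hpos, hz, -⟩ := exists_dom_bal h
  have hoff' : ∀ y ∉ bls n, ρ₀ (D8 y) = -1 := fun y hy => hoff _ (notMem_bal hy)
  refine ⟨8 * t, by linarith, fun y => ρ₀ (D8 y), ⟨hρ₀.sm.comp contDiff_D8, ?_, ?_⟩, hoff', ?_,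
    ?_, ?_⟩
  · intro y hy
    exact hoff' y fun h' => hy (bal_subset_core442 (bls_bal h'))
  · intro y hy
    have h6 : HasFDerivAt (fun y => ρ₀ (D8 y))
        ((fderiv ℝ ρ₀ (D8 y)).comp ((8 : ℝ) • ContinuousLinearMap.id ℝ (V n))) y :=
      HasFDerivAt.comp y (hρ₀.sm.differentiable (by simp) _).hasFDerivAt (fd_D8 y)
    rw [h6.fderiv]
    intro h7
    apply hρ₀.nz _ hy
    ext v
    have h8 := congrArg (fun T : V n →L[ℝ] ℝ => T v) h7
    simp only [ContinuousLinearMap.comp_apply, smul_apply,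
      ContinuousLinearMap.id_apply, map_smul, smul_eq_mul, zero_apply] at h8
    rcases mul_eq_zero.1 h8 with h9 | h9
    · norm_num at h9
    · rw [h9]; rfl
  · intro y
    rw [← ps_D8]
    exact hpos _
  · intro y
    rw [← ps_D8]
    exact hz _
  · intro y hy
    by_cases hb : y ∈ bls n
    · exact chi_bls hb
    · have := hoff' y hb
      simp only at hy
      rw [this] at hy
      norm_num at hy

/-- The cut-off of a metric. -/
def cutM (g : MF n) : MF n := fun y => 1 + chi442 y • (g y - 1)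

theorem cutM_apply (g : MF n) (y : V n) (i j : Fin n) :
    cutM g y i j - (1 : Matrix (Fin n) (Fin n) ℝ) i j =
      chi442 y * (g y i j - (1 : Matrix (Fin n) (Fin n) ℝ) i j) := by
  show (1 + chi442 y • (g y - 1)) i j - _ = _
  rw [Matrix.add_apply, Matrix.smul_apply, Matrix.sub_apply, smul_eq_mul]
  ring

theorem cutM_on {g : MF n} {y : V n} (h : chi442 y = 1) : cutM g y = g y := by
  unfold cutM
  rw [h, one_smul]
  abel

theorem cutM_off {g : MF n} {y : V n} (h : y ∉ bal n) : cutM g y = 1 := by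
  unfold cutM
  rw [chi_zero442 h, zero_smul, add_zero]

theorem sg_eq_one {g : MF n} {x : V n} (h : g x = 1) : sg g x = 1 := by
  show √(g x).det • (g x)⁻¹ = 1
  rw [h]
  simp

theorem smM_cutM {g : MF n} (hg : SmM g) : SmM (cutM g) := by
  intro i j
  have h1 : (fun y => cutM g y i j) = fun y => (1 : Matrix (Fin n) (Fin n) ℝ) i j
      + chi442 y * (g y i j - (1 : Matrix (Fin n) (Fin n) ℝ) i j) := by
    funext y
    have := cutM_apply g y i j
    linarith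
  rw [h1]
  exact contDiff_const.add (chi_smooth442.mul ((hg i j).sub contDiff_const))

theorem posDef_cutM {g : MF n} (hg : ∀ x, (g x).PosDef) (y : V n) : (cutM g y).PosDef := by
  have h1 := chi_nonneg442 y
  have h2 := chi_le_one442 y
  have e : cutM g y = (1 - chi442 y) • (1 : Matrix (Fin n) (Fin n) ℝ) + chi442 y • g y := by
    unfold cutM
    rw [smul_sub, sub_smul, one_smul]
    abel
  rw [e]
  rcases h1.lt_or_eq with h3 | h3
  · exact Matrix.PosDef.posSemidef_add (Matrix.PosSemidef.smul Matrix.PosSemidef.one (by linarith))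
      ((hg y).smul h3)
  · rw [← h3, sub_zero, one_smul, zero_smul, add_zero]
    exact Matrix.PosDef.one

/-- **Row B_SC.** -/
theorem rowBSC (hF : RowBFIN) : RowBSC := by
  intro n hn ρ hρ
  obtain ⟨t, ht1, ρ', hρ', hoff, hpos, hz, hχρ⟩ := exists_dom_bls hρ
  have ht0 : 0 < t := by linarith
  obtain ⟨k, ε, hε, hF⟩ := hF n hn ρ' hρ' hoff
  obtain ⟨B, hB, hχ⟩ := chi_cl442 n k
  obtain ⟨δ0, hδ0, hnorm0⟩ := H72.norm0 n k ε hε
  have hM : 0 < max 1 t ^ k := by positivity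
  refine ⟨k, min (δ0 / max 1 t ^ k) (δ0 / (2 ^ k * (B * max 1 t ^ k))), by positivity,
    fun g₁ g₂ hg₁ hg₂ hp₁ hp₂ hC₁ hC₂ hSE => ?_⟩
  have hOm : Om ρ' = ps t ⁻¹' Om ρ := by
    ext y
    exact hpos y
  have hO : IsOpen (Om ρ) := isOpen_lt continuous_const hρ.sm.continuous
  have hO' : IsOpen (Om ρ') := isOpen_lt continuous_const hρ'.sm.continuous
  have hs₁ : SmM (rs t g₁) := fun i j => (hg₁ i j).comp (contDiff_ps t)
  have hs₂ : SmM (rs t g₂) := fun i j => (hg₂ i j).comp (contDiff_ps t)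
  have hq₁ : ∀ x, (rs t g₁ x).PosDef := fun x => hp₁ _
  have hq₂ : ∀ x, (rs t g₂ x).PosDef := fun x => hp₂ _
  have hD₂ : ∀ i j, Cl k δ0 (fun x => rs t g₂ x i j - (1 : Matrix (Fin n) (Fin n) ℝ) i j) := by
    intro i j
    have := cl_ps ((hg₂ i j).sub contDiff_const) ht0
      (H72.cl_mono (hC₂ i j) (min_le_left _ _))
    rwa [mul_div_cancel₀ _ hM.ne'] at this
  have hfin : 2 ^ k * (B * (max 1 t ^ k * (δ0 / (2 ^ k * (B * max 1 t ^ k))))) = δ0 := by
    field_simp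
  have hD₁ : ∀ i j, Cl k δ0 (fun x => cutM (rs t g₁) x i j -
      (1 : Matrix (Fin n) (Fin n) ℝ) i j) := by
    intro i j
    have h1 := cl_mul442 chi_smooth442 (((hg₁ i j).comp (contDiff_ps t)).sub contDiff_const) hχ
      (cl_ps ((hg₁ i j).sub contDiff_const) ht0 (H72.cl_mono (hC₁ i j) (min_le_right _ _)))
    rw [hfin] at h1
    have h2 : (fun y => cutM (rs t g₁) y i j - (1 : Matrix (Fin n) (Fin n) ℝ) i j) =
        fun y => chi442 y * (g₁ (ps t y) i j - dl i j) := by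
      funext y
      rw [cutM_apply]
      rfl
    rw [h2]; exact h1
  have hon : ∀ y, 0 ≤ ρ' y → cutM (rs t g₁) y = rs t g₁ y := fun y hy => cutM_on (hχρ y hy)
  have hSE' : SE (Om ρ') (sg (cutM (rs t g₁))) (sg (rs t g₂)) := by
    have h1 := SE_ps607 t ht0 (Om ρ) hO _ _ hSE
    rw [← hOm] at h1
    intro f hf
    have h2 := h1 f hf
    have h3 : En (Om ρ') (sg (cutM (rs t g₁))) f = En (Om ρ') (rs t (sg g₁)) f := by
      refine En_congr607 hO'.measurableSet (fun y hy => ?_) f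
      have hy' : 0 < ρ' y := hy
      show √(cutM (rs t g₁) y).det • (cutM (rs t g₁) y)⁻¹ = _
      rw [hon y hy'.le]
      rfl
    rw [h3, h2]
    rfl
  obtain ⟨Φ, Ψ, hΦ, hΨ, h1, h2, h3, h4, h5, h6⟩ := hF (sg (cutM (rs t g₁))) (sg (rs t g₂))
    (H442.smM_sg442 (smM_cutM hs₁) (posDef_cutM hq₁)) (H442.smM_sg442 hs₂ hq₂)
    (posDef_sg607 (posDef_cutM hq₁)) (posDef_sg607 hq₂)
    (fun x hx => sg_eq_one (cutM_off hx)) (hnorm0 _ (smM_cutM hs₁) hD₁) (hnorm0 _ hs₂ hD₂) hSE'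
  -- the metric
  have hmet : ∀ y, 0 ≤ ρ' y → rs t g₂ y = (Jm Φ y)ᵀ * g₁ (ps t (Φ y)) * Jm Φ y := by
    intro y hy
    have hΦy : 0 ≤ ρ' (Φ y) := by
      rcases hy.lt_or_eq with h | h
      · exact ((h4 y).2 h).le
      · rw [h3 y h.symm]; exact hy
    have h7 := h6 y hy
    have h8 : sg (cutM (rs t g₁)) (Φ y) = √(g₁ (ps t (Φ y))).det • (g₁ (ps t (Φ y)))⁻¹ := by
      show √(cutM (rs t g₁) (Φ y)).det • (cutM (rs t g₁) (Φ y))⁻¹ = _
      rw [hon _ hΦy]
      rfl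
    rw [h8] at h7
    exact HY.H794.iso794 hn (h5 y) (hp₁ _) (hq₂ y) h7
  refine ⟨fun x => ps t (Φ (ph t x)), fun x => ps t (Ψ (ph t x)),
    (contDiff_ps t).comp (hΦ.comp (contDiff_ph t)), (contDiff_ps t).comp (hΨ.comp (contDiff_ph t)),
    ?_, ?_, ?_, ?_, ?_, ?_⟩
  · intro x
    show ps t (Ψ (ph t (ps t (Φ (ph t x))))) = x
    rw [ph_ps ht0.ne', h1, ps_ph ht0.ne']
  · intro x
    show ps t (Φ (ph t (ps t (Ψ (ph t x))))) = x
    rw [ph_ps ht0.ne', h2, ps_ph ht0.ne']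
  · intro x hx
    show ps t (Φ (ph t x)) = x
    rw [h3 (ph t x) ((hz _).2 (by rw [ps_ph ht0.ne']; exact hx)), ps_ph ht0.ne']
  · intro x
    show 0 < ρ (ps t (Φ (ph t x))) ↔ _
    rw [← hpos, h4, hpos, ps_ph ht0.ne']
  · intro x
    rw [Jm_scale hΦ ht0.ne']
    exact h5 _
  · intro x hx
    rw [Jm_scale hΦ ht0.ne']
    have hx' : 0 ≤ ρ' (ph t x) := by
      rcases hx.lt_or_eq with h | h
      · exact ((hpos _).2 (by rw [ps_ph ht0.ne']; exact h)).le
      · exact ((hz _).2 (by rw [ps_ph ht0.ne']; exact h.symm)).ge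
    have h7 := hmet (ph t x) hx'
    have e : rs t g₂ (ph t x) = g₂ x := by
      show g₂ (ps t (ph t x)) = g₂ x
      rw [ps_ph ht0.ne']
    rwa [e] at h7

end Vale.Agent.P088.HY.Bd.H335
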