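import Vale.Agent.P088.R2.H551.B.Spec
import Vale.Agent.P088.H798.KTop
import Vale.Agent.P088.R2.H335.BSc

/-!
# P088, two pairs near the trivial one on a smooth domain, no condition at the boundary: from the
small ball to every smooth bounded domain (scaling, cut-off), and from tensors to metrics (JB-SC)
-/

open MeasureTheory Set
open scoped ContDiff Matrix

noncomputable section

namespace Vale.Agent.P088.PJ.Bd.H335

open Vale.Agent.P088.LR Vale.Agent.P088.LR.CF Vale.Agent.P088.LR.B Vale.Agent.P088.LR.H925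
  Vale.Agent.P088.LR.H158 Vale.Agent.P088.LR.U Vale.Agent.P088.H798
open Vale.Agent.P088.LR.K (Dat Sma)
open Vale.Agent.P088.HY.Bd.H335 (cutM cutM_on cutM_off cutM_apply smM_cutM posDef_cutM sg_eq_one)

variable {n N : ℕ}

theorem datG_congr {Ω : Set (V n)} (hΩ : IsOpen Ω) {s₁ s₁' s₂ s₂' : MF n} {A₁ A₁' A₂ A₂' : Cn n N}
    (hs₁ : ∀ x ∈ Ω, s₁ x = s₁' x) (hA₁ : ∀ i, ∀ x ∈ Ω, A₁ i x = A₁' i x)
    (hs₂ : ∀ x ∈ Ω, s₂ x = s₂' x) (hA₂ : ∀ i, ∀ x ∈ Ω, A₂ i x = A₂' i x)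
    (h : DatG Ω s₁ A₁ s₂ A₂) : DatG Ω s₁' A₁' s₂' A₂' := by
  refine ⟨dat_congr hΩ hs₁ hA₁ hs₂ hA₂ h.1, fun f hf => ?_⟩
  obtain ⟨u, hu, huf, hu0⟩ := h.2 f hf
  refine ⟨u, hu, huf, fun x hx => ?_⟩
  rw [← lav_congr hΩ hs₁ hA₁ u hx]
  exact hu0 x hx

theorem datG_ps {t : ℝ} (ht : t ≠ 0) {Ω : Set (V n)} (hΩ : IsOpen Ω) {s₁ s₂ : MF n}
    {A₁ A₂ : Cn n N} (hs₁ : SmM s₁) (hs₂ : SmM s₂) (hA₁ : SmU A₁) (hA₂ : SmU A₂)
    (h : DatG Ω s₁ A₁ s₂ A₂) :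
    DatG (ps t ⁻¹' Ω) (rs t s₁) (rA t A₁) (rs t s₂) (rA t A₂) := by
  refine ⟨dat_ps ht hΩ hs₁ hs₂ hA₁ hA₂ h.1, fun f hf => ?_⟩
  obtain ⟨u, hu, huf, hu0⟩ := h.2 (fun x => f (ph t x)) (hf.comp (contDiff_ph t))
  have huu : (fun x => u (ps t (ph t x))) = u := by
    funext x; rw [ps_ph ht]
  have huc : ContDiff ℝ ∞ (fun y => u (ps t y)) := hu.comp (contDiff_ps t)
  refine ⟨fun y => u (ps t y), huc, fun y hy => ?_, fun y hy => ?_⟩
  · have e1 := (hm (n := n) t ht).preimage_frontier Ω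
    have e3 : (hm (n := n) t ht) ⁻¹' Ω = ps t ⁻¹' Ω := rfl
    rw [e3] at e1
    rw [← e1] at hy
    have h1 := huf (ps t y) hy
    simp only at h1 ⊢
    rw [h1, ph_ps ht]
  · have e := lav_ph ht hs₁ hA₁ huc (ps t y)
    rw [huu, hu0 _ hy, ph_ps ht] at e
    have h2 : (((t⁻¹ : ℝ) : ℂ) ^ 2) ≠ 0 := by
      refine pow_ne_zero 2 ?_
      exact_mod_cast inv_ne_zero ht
    exact (smul_eq_zero.1 e.symm).resolve_left h2

/-- **Row SC.** -/
theorem rowSC (hDAT : RowDAT) (hF : RowFIN) : RowSC := by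
  intro n N hn hN ρ hρ
  obtain ⟨t, ht1, ρ', hρ', hoff, hpos, hz⟩ := H798.exists_dom_bls hρ
  have ht0 : 0 < t := by linarith
  obtain ⟨k, ε, hε, hF⟩ := hF n N hn hN ρ' hρ' hoff
  obtain ⟨B, hB, hχ⟩ := chi_cl442 n k
  obtain ⟨δ0, hδ0, hnorm0⟩ := Vale.Agent.P088.LR.H72.norm0 n k ε hε
  have hM : 0 < max 1 t ^ k := by positivity
  refine ⟨k, min (min (δ0 / max 1 t ^ k) (δ0 / (2 ^ k * (B * max 1 t ^ k))))
    (ε / (2 ^ k * (B * (t * max 1 t ^ k)))), by positivity,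
    fun g₁ g₂ hg₁ hg₂ hp₁ hp₂ hC₁ hC₂ A₁ A₂ hA₁ hA₂ hA₁c hA₂c hSD => ?_⟩
  have hOm : Om ρ' = ps t ⁻¹' Om ρ := by
    ext y
    exact hpos y
  have hO : IsOpen (Om ρ) := isOpen_lt continuous_const hρ.sm.continuous
  have hO' : IsOpen (Om ρ') := isOpen_lt continuous_const hρ'.sm.continuous
  have hbd : Bornology.IsBounded (Om ρ) :=
    hρ.bd.subset fun x (hx : 0 < ρ x) => (show 0 ≤ ρ x from hx.le)
  have hbls : ∀ y, 0 ≤ ρ' y → ∑ j, (y j - 1 / 2) ^ 2 ≤ 1 / 64 := by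
    intro y hy
    by_contra hc'
    have h1 := hoff y hc'
    linarith
  have hχρ : ∀ y, 0 ≤ ρ' y → chi442 y = 1 := fun y hy => chi_one442 (hbls y hy)
  have hs₁ : SmM (rs t g₁) := fun i j => (hg₁ i j).comp (contDiff_ps t)
  have hs₂ : SmM (rs t g₂) := fun i j => (hg₂ i j).comp (contDiff_ps t)
  have hq₁ : ∀ x, (rs t g₁ x).PosDef := fun x => hp₁ _
  have hq₂ : ∀ x, (rs t g₂ x).PosDef := fun x => hp₂ _
  have hD₂ : ∀ i j, Cl k δ0 (fun x => rs t g₂ x i j - (1 : Matrix (Fin n) (Fin n) ℝ) i j) := by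
    intro i j
    have := cl_ps ((hg₂ i j).sub contDiff_const) ht0
      (Vale.Agent.P088.LR.H72.cl_mono (hC₂ i j) ((min_le_left _ _).trans (min_le_left _ _)))
    rwa [mul_div_cancel₀ _ hM.ne'] at this
  have hfin : 2 ^ k * (B * (max 1 t ^ k * (δ0 / (2 ^ k * (B * max 1 t ^ k))))) = δ0 := by
    field_simp
  have hfin2 : 2 ^ k * (B * (t * (max 1 t ^ k * (ε / (2 ^ k * (B * (t * max 1 t ^ k))))))) = ε := by
    field_simp
  have hD₁ : ∀ i j, Cl k δ0 (fun x => cutM (rs t g₁) x i j -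
      (1 : Matrix (Fin n) (Fin n) ℝ) i j) := by
    intro i j
    have h1 := cl_mul442 chi_smooth442 (((hg₁ i j).comp (contDiff_ps t)).sub contDiff_const) hχ
      (cl_ps ((hg₁ i j).sub contDiff_const) ht0 (Vale.Agent.P088.LR.H72.cl_mono (hC₁ i j)
        ((min_le_left _ _).trans (min_le_right _ _))))
    rw [hfin] at h1
    have h2 : (fun y => cutM (rs t g₁) y i j - (1 : Matrix (Fin n) (Fin n) ℝ) i j) =
        fun y => chi442 y * (g₁ (ps t y) i j - dl i j) := by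
      funext y
      rw [cutM_apply]
      rfl
    rw [h2]; exact h1
  have hon : ∀ y, 0 ≤ ρ' y → cutM (rs t g₁) y = rs t g₁ y := fun y hy => cutM_on (hχρ y hy)
  -- the connections
  have hcl : ∀ A : Cn n N, SmU A → (∀ i, ClC k (min (min (δ0 / max 1 t ^ k)
      (δ0 / (2 ^ k * (B * max 1 t ^ k)))) (ε / (2 ^ k * (B * (t * max 1 t ^ k))))) (A i)) →
      ∀ i, ClC k ε (cA t A i) := by
    intro A hA hcc i
    have h1 : ClC k (ε / (2 ^ k * (B * (t * max 1 t ^ k)))) (A i) :=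
      fun a b => Vale.Agent.P088.LR.H72.cl_mono (hcc i a b) (min_le_right _ _)
    have h2 := cA_cl hA ht0 hχ h1
    rwa [hfin2] at h2
  have hcAon : ∀ A : Cn n N, ∀ i, ∀ y, 0 ≤ ρ' y → cA t A i y = rA t A i y := by
    intro A i y hy
    show ((chi442 y : ℝ) : ℂ) • rA t A i y = _
    rw [hχρ y hy, Complex.ofReal_one, one_smul]
  have hcA0 : ∀ i, ∀ y ∉ bal n, cA t A₁ i y = 0 := by
    intro i y hy
    show ((chi442 y : ℝ) : ℂ) • rA t A₁ i y = 0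
    rw [chi_zero442 hy, Complex.ofReal_zero, zero_smul]
  -- the data
  have hdat : DatG (Om ρ) (sg g₁) A₁ (sg g₂) A₂ :=
    hDAT (Om ρ) hO hbd g₁ g₂ hg₁ hg₂ hp₁ hp₂ A₁ A₂ hA₁ hA₂ hSD
  have hdat' : DatG (Om ρ') (sg (cutM (rs t g₁))) (cA t A₁) (sg (rs t g₂)) (cA t A₂) := by
    have h1 := datG_ps ht0.ne' hO (H442.smM_sg442 hg₁ hp₁) (H442.smM_sg442 hg₂ hp₂)
      hA₁ hA₂ hdat
    rw [← hOm] at h1
    refine datG_congr hO' (fun y hy => ?_) (fun i y hy => (hcAon A₁ i y (le_of_lt hy)).symm)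
      (fun y hy => rfl) (fun i y hy => (hcAon A₂ i y (le_of_lt hy)).symm) h1
    have hy' : 0 < ρ' y := hy
    show _ = √(cutM (rs t g₁) y).det • (cutM (rs t g₁) y)⁻¹
    rw [hon y hy'.le]
    rfl
  obtain ⟨Φ, Ψ, U, hΦ, hΨ, h1, h2, h3, h4, h5, h6, hU, hUu, hU1, hUg⟩ :=
    hF (sg (cutM (rs t g₁))) (sg (rs t g₂))
    (H442.smM_sg442 (smM_cutM hs₁) (posDef_cutM hq₁)) (H442.smM_sg442 hs₂ hq₂)
    (Vale.Agent.P088.H607.posDef_sg607 (posDef_cutM hq₁))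
    (Vale.Agent.P088.H607.posDef_sg607 hq₂)
    (fun x hx => sg_eq_one (cutM_off hx)) (cA t A₁) (cA t A₂)
    (smU_cA hA₁ t) (smU_cA hA₂ t) hcA0
    ⟨hnorm0 _ (smM_cutM hs₁) hD₁, hnorm0 _ hs₂ hD₂, hcl A₁ hA₁ hA₁c, hcl A₂ hA₂ hA₂c⟩ hdat'
  -- the metric
  have hΦnn : ∀ y, 0 ≤ ρ' y → 0 ≤ ρ' (Φ y) := by
    intro y hy
    rcases hy.lt_or_eq with h | h
    · exact ((h4 y).2 h).le
    · rw [h3 y h.symm]; exact hy
  have hmet : ∀ y, 0 ≤ ρ' y → rs t g₂ y = (Jm Φ y)ᵀ * g₁ (ps t (Φ y)) * Jm Φ y := by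
    intro y hy
    have h7 := h6 y hy
    have h8 : sg (cutM (rs t g₁)) (Φ y) = √(g₁ (ps t (Φ y))).det • (g₁ (ps t (Φ y)))⁻¹ := by
      show √(cutM (rs t g₁) (Φ y)).det • (cutM (rs t g₁) (Φ y))⁻¹ = _
      rw [hon _ (hΦnn y hy)]
      rfl
    rw [h8] at h7
    exact HY.H794.iso794 hn (h5 y) (hp₁ _) (hq₂ y) h7
  have hρz : ∀ x, ρ x = 0 → ρ' (ph t x) = 0 := by
    intro x hx
    exact (hz _).2 (by rw [ps_ph ht0.ne']; exact hx)
  have hρp : ∀ x, 0 < ρ x → 0 < ρ' (ph t x) := by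
    intro x hx
    exact (hpos _).2 (by rw [ps_ph ht0.ne']; exact hx)
  refine ⟨fun x => ps t (Φ (ph t x)), fun x => ps t (Ψ (ph t x)), fun x => U (ph t x),
    ⟨(contDiff_ps t).comp (hΦ.comp (contDiff_ph t)), (contDiff_ps t).comp (hΨ.comp (contDiff_ph t)),
    ?_, ?_, ?_, ?_, ?_, ?_⟩, ⟨?_, ?_, ?_⟩, ?_⟩
  · intro x
    show ps t (Ψ (ph t (ps t (Φ (ph t x))))) = x
    rw [ph_ps ht0.ne', h1, ps_ph ht0.ne']
  · intro x
    show ps t (Φ (ph t (ps t (Ψ (ph t x))))) = x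
    rw [ph_ps ht0.ne', h2, ps_ph ht0.ne']
  · intro x hx
    show ps t (Φ (ph t x)) = x
    rw [h3 (ph t x) (hρz x hx), ps_ph ht0.ne']
  · intro x
    show 0 < ρ (ps t (Φ (ph t x))) ↔ _
    rw [← hpos, h4, hpos, ps_ph ht0.ne']
  · intro x
    rw [Jm_scale hΦ ht0.ne']
    exact h5 _
  · intro x hx
    rw [Jm_scale hΦ ht0.ne']
    have hx' : 0 ≤ ρ' (ph t x) := by
      rcases hx.lt_or_eq with h | h
      · exact (hρp x h).le
      · exact (hρz x h.symm).ge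
    have h7 := hmet (ph t x) hx'
    have e : rs t g₂ (ph t x) = g₂ x := by
      show g₂ (ps t (ph t x)) = g₂ x
      rw [ps_ph ht0.ne']
    rwa [e] at h7
  · intro a b
    exact (hU a b).comp (contDiff_ph t)
  · intro x _
    exact hUu _
  · intro i x hx
    have hy : 0 < ρ' (ph t x) := hρp x hx
    have e1 := hUg i (ph t x) hy
    have e2 : cA t A₂ i (ph t x) = (t : ℂ) • A₂ i x := by
      rw [hcAon A₂ i _ hy.le]
      show (t : ℂ) • A₂ i (ps t (ph t x)) = _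
      rw [ps_ph ht0.ne']
    have e3 : pbF Φ (cA t A₁) i (ph t x)
        = (t : ℂ) • pbF (fun x => ps t (Φ (ph t x))) A₁ i x := by
      unfold pbF
      rw [Finset.smul_sum]
      refine Finset.sum_congr rfl fun j _ => ?_
      rw [hcAon A₁ j _ (hΦnn _ hy.le), Jm_scale hΦ ht0.ne', smul_comm]
      rfl
    have e4 : pdm i U (ph t x) = (t : ℂ) • pdm i (fun x => U (ph t x)) x := by
      ext a b
      simp only [pdm, Matrix.of_apply, Matrix.smul_apply, smul_eq_mul]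
      rw [pd_ph i ((hU a b).differentiable (by simp)) t x, Complex.real_smul, ← mul_assoc,
        ← Complex.ofReal_mul, mul_inv_cancel₀ ht0.ne', Complex.ofReal_one, one_mul]
    rw [e2, e3, e4, Matrix.mul_smul, Matrix.smul_mul, Matrix.mul_smul, ← smul_add] at e1
    exact smul_right_injective _ (by exact_mod_cast ht0.ne' : (t : ℂ) ≠ 0) e1
  · intro x hx
    have h7 : ρ x = 0 := by
      have h8 : 0 ≤ ρ x := closure_minimal (fun y (hy : 0 < ρ y) => (show 0 ≤ ρ y from hy.le))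
        (isClosed_le continuous_const hρ.sm.continuous) (frontier_subset_closure hx)
      rw [hO.frontier_eq] at hx
      exact le_antisymm (not_lt.1 fun h => hx.2 h) h8
    exact hU1 _ (hρz x h7)

end Vale.Agent.P088.PJ.Bd.H335
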